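import Vale.Agent.P207.H571.FlowC

/-!
# P207, block SPEC, row R3: the Hilbert space system of a system of flows
-/

open Filter Topology MeasureTheory Set
open scoped InnerProductSpace Interval ENNReal

noncomputable section

set_option linter.unusedSectionVars false

namespace Vale.Agent.P207.H571

open H395

variable {ι : Type} [Fintype ι] {N : Type} [TopologicalSpace N] [CompactSpace N]
  [MeasurableSpace N] [BorelSpace N] {μ : Measure N} [IsFiniteMeasure μ]

variable (μ) in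
/-- the class of a continuous function -/
def toL : C(N, ℝ) →L[ℝ] Lp ℝ 2 μ := ContinuousMap.toLp 2 μ ℝ

theorem coeFn_toL (f : C(N, ℝ)) : toL μ f =ᵐ[μ] f := ContinuousMap.coeFn_toLp μ f

theorem toL_injective [μ.IsOpenPosMeasure] : Function.Injective (toL (N := N) μ) :=
  ContinuousMap.toLp_injective μ

theorem toL_denseRange [T2Space N] [μ.WeaklyRegular] : DenseRange (toL (N := N) μ) :=
  ContinuousMap.toLp_denseRange ℝ μ ℝ (by simp)

/-- the product with a continuous function -/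
def mulL (g : C(N, ℝ)) : Lp ℝ 2 μ →L[ℝ] Lp ℝ 2 μ :=
  (ContinuousLinearMap.mul ℝ ℝ).holderL μ ∞ 2 2 (ContinuousMap.toLp ∞ μ ℝ g)

theorem coeFn_mulL (g : C(N, ℝ)) (u : Lp ℝ 2 μ) : mulL g u =ᵐ[μ] fun p => g p * u p := by
  have h1 : mulL g u =ᵐ[μ] fun p => ContinuousLinearMap.mul ℝ ℝ
      ((ContinuousMap.toLp ∞ μ ℝ g : Lp ℝ ∞ μ) p) (u p) :=
    (ContinuousLinearMap.mul ℝ ℝ).coeFn_holder _ _
  filter_upwards [h1, ContinuousMap.coeFn_toLp (p := ∞) (𝕜 := ℝ) μ g] with p hp hq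
  rw [hp, hq]
  rfl

theorem mulL_toL (g f : C(N, ℝ)) : mulL g (toL μ f) = toL μ (g * f) := by
  apply Lp.ext
  filter_upwards [coeFn_mulL g (toL μ f), coeFn_toL (μ := μ) f, coeFn_toL (μ := μ) (g * f)]
    with p h1 h2 h3
  rw [h1, h2, h3]
  rfl

/-- multiplication by continuous functions, as a homomorphism -/
def mulHom : C(N, ℝ) →ₐ[ℝ] (Lp ℝ 2 μ →L[ℝ] Lp ℝ 2 μ) where
  toFun g := mulL g
  map_one' := by
    ext1 u
    apply Lp.ext
    filter_upwards [coeFn_mulL (1 : C(N, ℝ)) u] with p hp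
    rw [hp]
    simp
  map_mul' g g' := by
    ext1 u
    apply Lp.ext
    filter_upwards [coeFn_mulL (g * g') u, coeFn_mulL g (mulL g' u), coeFn_mulL g' u]
      with p h1 h2 h3
    change (mulL (g * g') u : Lp ℝ 2 μ) p = (mulL g (mulL g' u) : Lp ℝ 2 μ) p
    rw [h1, h2, h3]
    simp [mul_assoc]
  map_zero' := by
    ext1 u
    apply Lp.ext
    filter_upwards [coeFn_mulL (0 : C(N, ℝ)) u, Lp.coeFn_zero ℝ 2 μ] with p hp hq
    change (mulL (0 : C(N, ℝ)) u : Lp ℝ 2 μ) p = (0 : Lp ℝ 2 μ) p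
    rw [hp, hq]
    simp
  map_add' g g' := by
    ext1 u
    apply Lp.ext
    filter_upwards [coeFn_mulL (g + g') u, coeFn_mulL g u, coeFn_mulL g' u,
      Lp.coeFn_add (mulL g u) (mulL g' u)] with p h1 h2 h3 h4
    change (mulL (g + g') u : Lp ℝ 2 μ) p = (mulL g u + mulL g' u : Lp ℝ 2 μ) p
    rw [h1, h4]
    simp [h2, h3, add_mul]
  commutes' r := by
    ext1 u
    apply Lp.ext
    filter_upwards [coeFn_mulL (algebraMap ℝ C(N, ℝ) r) u, Lp.coeFn_smul r u] with p h1 h2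
    rw [h1, Algebra.algebraMap_eq_smul_one (R := ℝ) (A := (Lp ℝ 2 μ →L[ℝ] Lp ℝ 2 μ))]
    change _ = (r • u : Lp ℝ 2 μ) p
    rw [h2]
    simp

@[simp] theorem mulHom_apply (g : C(N, ℝ)) : mulHom (μ := μ) g = mulL g := rfl

theorem inner_mulL (g : C(N, ℝ)) (u v : Lp ℝ 2 μ) :
    ⟪mulL g u, v⟫_ℝ = ⟪u, mulL g v⟫_ℝ := by
  rw [L2.inner_def, L2.inner_def]
  refine integral_congr_ae ?_
  filter_upwards [coeFn_mulL g u, coeFn_mulL g v] with p h1 h2
  rw [h1, h2]
  simp only [RCLike.inner_apply, conj_trivial]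
  ring

theorem adjoint_mulL (g : C(N, ℝ)) :
    ContinuousLinearMap.adjoint (mulL (μ := μ) g) = mulL g := by
  refine (ContinuousLinearMap.eq_adjoint_iff _ _).2 ?_ |>.symm
  intro u v
  exact inner_mulL g u v

theorem inner_toL (f g : C(N, ℝ)) : ⟪toL μ f, toL μ g⟫_ℝ = ∫ p, f p * g p ∂μ := by
  rw [L2.inner_def]
  refine integral_congr_ae ?_
  filter_upwards [coeFn_toL (μ := μ) f, coeFn_toL (μ := μ) g] with p h1 h2
  rw [h1, h2]
  simp only [RCLike.inner_apply, conj_trivial]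
  ring

variable (S : NSys ι N μ)

/-- the flow on square integrable functions -/
def UL (a : ι) (t : ℝ) : Lp ℝ 2 μ →L[ℝ] Lp ℝ 2 μ :=
  (Lp.compMeasurePreservingₗᵢ ℝ (S.Φ a t) (S.mp a t)).toContinuousLinearMap

theorem norm_UL (a : ι) (t : ℝ) (u : Lp ℝ 2 μ) : ‖UL S a t u‖ = ‖u‖ :=
  (Lp.compMeasurePreservingₗᵢ ℝ (S.Φ a t) (S.mp a t)).norm_map u

theorem coeFn_UL (a : ι) (t : ℝ) (u : Lp ℝ 2 μ) : UL S a t u =ᵐ[μ] fun p => u (S.Φ a t p) :=
  Lp.coeFn_compMeasurePreserving u (S.mp a t)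

theorem UL_toL (a : ι) (t : ℝ) (f : C(N, ℝ)) : UL S a t (toL μ f) = toL μ (UC S a t f) := by
  apply Lp.ext
  have h := (S.mp a t).quasiMeasurePreserving.ae (coeFn_toL (μ := μ) f)
  filter_upwards [coeFn_UL S a t (toL μ f), h, coeFn_toL (μ := μ) (UC S a t f)] with p h1 h2 h3
  rw [h1, h2, h3]
  rfl

theorem UL_zero (a : ι) : UL S a 0 = 1 := by
  ext1 u
  apply Lp.ext
  filter_upwards [coeFn_UL S a 0 u] with p h1
  rw [h1, S.zero]
  rfl

theorem UL_add (a : ι) (s t : ℝ) : UL S a (s + t) = UL S a s * UL S a t := by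
  ext1 u
  apply Lp.ext
  have h := (S.mp a s).quasiMeasurePreserving.ae (coeFn_UL S a t u)
  filter_upwards [coeFn_UL S a (s + t) u, coeFn_UL S a s (UL S a t u), h] with p h1 h2 h3
  change (UL S a (s + t) u : Lp ℝ 2 μ) p = (UL S a s (UL S a t u) : Lp ℝ 2 μ) p
  rw [h1, h2, h3, add_comm, S.add]

/-- the integral of a derivative vanishes -/
theorem integral_X (a : ι) (f : S.A) : ∫ p, (S.X a f : C(N, ℝ)) p ∂μ = 0 := by
  -- the integral as a continuous functional
  let L : C(N, ℝ) →L[ℝ] ℝ := (innerSL ℝ (toL μ 1)).comp (toL μ)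
  have hL : ∀ g : C(N, ℝ), L g = ∫ p, g p ∂μ := by
    intro g
    have := inner_toL (μ := μ) 1 g
    simpa [L] using this
  have h1 : HasDerivAt (fun t => L (UC S a t (f : C(N, ℝ)))) (L (UC S a 0 (S.X a f))) 0 :=
    L.hasFDerivAt.comp_hasDerivAt 0 (hasDerivAt_UC S a f 0)
  have h2 : ∀ t, L (UC S a t (f : C(N, ℝ))) = ∫ p, (f : C(N, ℝ)) p ∂μ := by
    intro t
    rw [hL]
    have h3 := integral_map (μ := μ) (φ := S.Φ a t) (f := fun p => (f : C(N, ℝ)) p)
      (S.mp a t).measurable.aemeasurable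
      ((f : C(N, ℝ)).continuous.aestronglyMeasurable)
    rw [(S.mp a t).map_eq] at h3
    exact h3.symm
  simp only [h2] at h1
  have h4 := h1.unique (hasDerivAt_const 0 _)
  rw [hL] at h4
  have h5 : UC S a 0 (S.X a f : C(N, ℝ)) = S.X a f := by
    ext p; simp [S.zero]
  rwa [h5] at h4

theorem skew_toL (a : ι) (f g : S.A) :
    ⟪toL μ (S.X a f : C(N, ℝ)), toL μ (g : C(N, ℝ))⟫_ℝ =
      - ⟪toL μ (f : C(N, ℝ)), toL μ (S.X a g : C(N, ℝ))⟫_ℝ := by
  rw [inner_toL, inner_toL]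
  have h := integral_X S a (f * g)
  rw [Derivation.leibniz] at h
  have h2 : ∀ p, ((f • S.X a g + g • S.X a f : S.A) : C(N, ℝ)) p =
      (f : C(N, ℝ)) p * (S.X a g : C(N, ℝ)) p + (S.X a f : C(N, ℝ)) p * (g : C(N, ℝ)) p := by
    intro p
    simp only [smul_eq_mul, Subalgebra.coe_add, Subalgebra.coe_mul, ContinuousMap.add_apply,
      ContinuousMap.mul_apply]
    ring
  simp only [h2] at h
  rw [integral_add] at h
  · linarith
  · exact ((f : C(N, ℝ)) * (S.X a g : C(N, ℝ))).continuous.integrable_of_hasCompactSupport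
      (HasCompactSupport.of_compactSpace _)
  · exact ((S.X a f : C(N, ℝ)) * (g : C(N, ℝ))).continuous.integrable_of_hasCompactSupport
      (HasCompactSupport.of_compactSpace _)

/-! ### the system -/

variable [T2Space N] [μ.WeaklyRegular] [μ.IsOpenPosMeasure]

/-- the classes of the smooth functions -/
def AL : Submodule ℝ (Lp ℝ 2 μ) := (Subalgebra.toSubmodule S.A).map (toL μ).toLinearMap

/-- a smooth function and its class -/
def cls : S.A ≃ₗ[ℝ] AL S :=
  (Subalgebra.toSubmodule S.A).equivMapOfInjective (toL μ).toLinearMap toL_injective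

@[simp] theorem coe_cls (f : S.A) : (cls S f : Lp ℝ 2 μ) = toL μ (f : C(N, ℝ)) := rfl

theorem toL_mem_AL {f : C(N, ℝ)} (hf : f ∈ S.A) : toL μ f ∈ AL S := ⟨f, hf, rfl⟩

theorem toL_mem_AL_iff {f : C(N, ℝ)} : toL μ f ∈ AL S ↔ f ∈ S.A := by
  constructor
  · rintro ⟨g, hg, h⟩
    have : g = f := toL_injective h
    rw [← this]; exact hg
  · exact toL_mem_AL S

/-- the derivations on classes -/
def XL (a : ι) : AL S →ₗ[ℝ] AL S :=
  (cls S).toLinearMap ∘ₗ (S.X a).toLinearMap ∘ₗ (cls S).symm.toLinearMap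

@[simp] theorem XL_cls (a : ι) (f : S.A) : XL S a (cls S f) = cls S (S.X a f) := by
  simp [XL]

theorem exists_cls (u : AL S) : ∃ f : S.A, cls S f = u := (cls S).surjective u

theorem dense_AL : Dense (AL S : Set (Lp ℝ 2 μ)) := by
  have h1 : Dense (S.A : Set C(N, ℝ)) := by
    rw [dense_iff_closure_eq, ← Subalgebra.topologicalClosure_coe, S.dense]
    rfl
  have h2 := (toL_denseRange (N := N) (μ := μ)).dense_image (toL μ).continuous h1
  exact h2

/-- **the Hilbert space system of a system of flows** -/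
def toHSys : HSys ι (Lp ℝ 2 μ) where
  A := AL S
  dense := dense_AL S
  X := XL S
  skew a u v := by
    obtain ⟨f, rfl⟩ := exists_cls S u
    obtain ⟨g, rfl⟩ := exists_cls S v
    rw [XL_cls, XL_cls]
    exact skew_toL S a f g
  U := UL S
  U_zero := UL_zero S
  U_add := UL_add S
  U_norm := norm_UL S
  U_mem a t u hu := by
    obtain ⟨f, hf⟩ := exists_cls S ⟨u, hu⟩
    have h : u = toL μ (f : C(N, ℝ)) := by
      have := congrArg Subtype.val hf
      exact this.symm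
    rw [h, UL_toL]
    exact toL_mem_AL S (UC_mem S a t f.2)
  U_deriv a u := by
    obtain ⟨f, rfl⟩ := exists_cls S u
    have h := (toL μ).hasFDerivAt.comp_hasDerivAt 0 (hasDerivAt_UC S a f 0)
    have h2 : UC S a 0 (S.X a f : C(N, ℝ)) = S.X a f := by
      ext p; simp [S.zero]
    rw [h2] at h
    rw [XL_cls]
    refine h.congr_of_eventuallyEq (Eventually.of_forall fun t => ?_)
    simp only [coe_cls, Function.comp]
    exact UL_toL S a t _
  XU_deriv a b u := by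
    obtain ⟨f, rfl⟩ := exists_cls S u
    have h := (toL μ).hasFDerivAt.comp_hasDerivAt 0 (hasDerivAt_XUN S a b f)
    rw [XL_cls, XL_cls]
    refine h.congr_of_eventuallyEq (Eventually.of_forall fun t => ?_)
    simp only [Function.comp]
    have h3 : ∀ hm, (⟨UL S b t (cls S f : Lp ℝ 2 μ), hm⟩ : AL S) = cls S (UN S b t f) := by
      intro hm
      apply Subtype.ext
      exact UL_toL S b t _
    rw [h3, XL_cls]
    rfl
  T := S.A.map mulHom
  T_mem P hP u hu := by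
    obtain ⟨g, hg, rfl⟩ := hP
    obtain ⟨f, hf, rfl⟩ := hu
    have : mulL g (toL μ f) = toL μ (g * f) := mulL_toL g f
    change mulL g (toL μ f) ∈ AL S
    rw [this]
    exact toL_mem_AL S (S.A.mul_mem hg hf)
  T_adj P hP := by
    obtain ⟨g, hg, rfl⟩ := hP
    refine ⟨g, hg, ?_⟩
    exact (adjoint_mulL g).symm
  T_comm a P hP := by
    have hP' := hP
    obtain ⟨g, hg, rfl⟩ := hP'
    refine ⟨mulL (S.X a ⟨g, hg⟩ : C(N, ℝ)), ⟨_, (S.X a ⟨g, hg⟩).2, rfl⟩, fun u => ?_⟩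
    obtain ⟨f, rfl⟩ := exists_cls S u
    have h3 : ∀ hm, (⟨mulL g (cls S f : Lp ℝ 2 μ), hm⟩ : AL S) = cls S (⟨g, hg⟩ * f) := by
      intro hm
      apply Subtype.ext
      exact mulL_toL g _
    have h4 := h3 (by
      rw [coe_cls, mulL_toL]
      exact toL_mem_AL S (S.A.mul_mem hg f.2))
    have h5 : (XL S a (⟨mulL g (cls S f : Lp ℝ 2 μ), by
      rw [coe_cls, mulL_toL]
      exact toL_mem_AL S (S.A.mul_mem hg f.2)⟩ : AL S) : Lp ℝ 2 μ) =
        mulL g (XL S a (cls S f)) + mulL (S.X a ⟨g, hg⟩ : C(N, ℝ)) (cls S f : Lp ℝ 2 μ) := by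
      rw [h4, XL_cls, XL_cls, Derivation.leibniz, coe_cls, coe_cls, coe_cls, mulL_toL, mulL_toL,
        ← map_add]
      congr 1
      simp only [smul_eq_mul, Subalgebra.coe_add, Subalgebra.coe_mul]
      rw [mul_comm (f : C(N, ℝ))]
    exact h5
  comm a b := by
    refine ⟨fun k => mulL (S.c a b k : C(N, ℝ)), fun k => ⟨_, (S.c a b k).2, rfl⟩, fun u => ?_⟩
    obtain ⟨f, rfl⟩ := exists_cls S u
    have h := S.brk a b f
    have h2 : ∀ k, mulL (S.c a b k : C(N, ℝ)) (XL S k (cls S f) : Lp ℝ 2 μ) =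
        toL μ ((S.c a b k * S.X k f : S.A) : C(N, ℝ)) := by
      intro k
      rw [XL_cls, coe_cls, mulL_toL]
      rfl
    simp only [h2]
    rw [XL_cls, XL_cls, XL_cls, XL_cls, coe_cls, coe_cls, ← map_sub, ← map_sum]
    congr 1
    have h3 := congrArg (Subtype.val) h
    simpa using h3

theorem toHSys_A : (toHSys S).A = AL S := rfl

theorem toHSys_X (a : ι) (f : S.A) : (toHSys S).X a (cls S f) = cls S (S.X a f) := XL_cls S a f

theorem toHSys_U (a : ι) (t : ℝ) : (toHSys S).U a t = UL S a t := rfl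

theorem mem_T_iff (P : Lp ℝ 2 μ →L[ℝ] Lp ℝ 2 μ) :
    P ∈ (toHSys S).T ↔ ∃ g ∈ S.A, mulL g = P := Iff.rfl

/-- the norm of a class -/
theorem norm_cls (f : S.A) : ‖(cls S f : Lp ℝ 2 μ)‖ = S.l2 f := by
  rw [NSys.l2, coe_cls, ← Real.sqrt_sq (norm_nonneg (toL μ (f : C(N, ℝ)))),
    ← real_inner_self_eq_norm_sq, inner_toL]
  simp only [pow_two]

/-- the Sobolev norms agree -/
theorem nS_cls (s : ℕ) (f : S.A) : (toHSys S).nS s (cls S f) = S.hN s f := by
  induction s generalizing f with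
  | zero => exact norm_cls S f
  | succ s ih =>
    change (toHSys S).nS s (cls S f) + ∑ a, (toHSys S).nS s ((toHSys S).X a (cls S f)) =
      S.hN s f + ∑ a, S.hN s (S.X a f)
    rw [ih]
    congr 1
    refine Finset.sum_congr rfl fun a _ => ?_
    rw [toHSys_X, ih]

end Vale.Agent.P207.H571
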