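import Vale.Agent.P207.H571.L2Sys

/-!
# P207, block SPEC, row R3: elements of all Sobolev spaces are smooth functions
-/

open Filter Topology MeasureTheory Set
open scoped InnerProductSpace Interval ENNReal

noncomputable section

set_option linter.unusedSectionVars false

namespace Vale.Agent.P207.H571

open H395

/-! ### weighted averages over a one-parameter family -/

/-- the two weights -/
def wt (r : ℝ) : Bool → ℝ → ℝ
  | false, _ => 1
  | true, t => t - r

theorem continuous_wt (r : ℝ) (j : Bool) : Continuous (wt r j) := by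
  cases j with
  | false => exact continuous_const
  | true => exact continuous_id.sub continuous_const

theorem abs_wt_le {r : ℝ} {t : ℝ} (ht : t ∈ uIcc (0 : ℝ) r) (j : Bool) : |wt r j t| ≤ max 1 |r| := by
  cases j with
  | false => simp [wt]
  | true =>
    refine le_trans ?_ (le_max_right _ _)
    simp only [wt]
    rcases le_total 0 r with h | h
    · rw [uIcc_of_le h] at ht
      rw [abs_of_nonneg h, abs_le]
      constructor <;> linarith [ht.1, ht.2]
    · rw [uIcc_of_ge h] at ht
      rw [abs_of_nonpos h, abs_le]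
      constructor <;> linarith [ht.1, ht.2]

section Avo

variable {E : Type*} [NormedAddCommGroup E] [NormedSpace ℝ E] [CompleteSpace E]
  {E' : Type*} [NormedAddCommGroup E'] [NormedSpace ℝ E'] [CompleteSpace E']

/-- a strongly continuous family of contractions -/
structure Fam (E : Type*) [NormedAddCommGroup E] [NormedSpace ℝ E] where
  V : ℝ → E →L[ℝ] E
  cont : ∀ u, Continuous fun t => V t u
  le : ∀ t u, ‖V t u‖ ≤ ‖u‖

theorem Fam.int (V : Fam E) (r : ℝ) (j : Bool) (u : E) (a b : ℝ) :
    IntervalIntegrable (fun t => wt r j t • V.V t u) volume a b :=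
  Continuous.intervalIntegrable ((continuous_wt r j).smul (V.cont u)) _ _

/-- the weighted average -/
def avo (V : Fam E) (r : ℝ) (j : Bool) : E →L[ℝ] E :=
  LinearMap.mkContinuous
    { toFun := fun u => ∫ t in (0 : ℝ)..r, wt r j t • V.V t u
      map_add' := fun u v => by
        rw [← intervalIntegral.integral_add (V.int r j u _ _) (V.int r j v _ _)]
        simp only [map_add, smul_add]
      map_smul' := fun c u => by
        rw [RingHom.id_apply, ← intervalIntegral.integral_smul]
        simp only [map_smul]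
        refine intervalIntegral.integral_congr fun t _ => ?_
        exact smul_comm _ _ _ } (max 1 |r| * |r - 0|) fun u => by
      have h := intervalIntegral.norm_integral_le_of_norm_le_const (a := 0) (b := r)
        (f := fun t => wt r j t • V.V t u) (C := max 1 |r| * ‖u‖) fun t ht => by
          rw [norm_smul, Real.norm_eq_abs]
          exact mul_le_mul (abs_wt_le (uIoc_subset_uIcc ht) j) (V.le t u) (norm_nonneg _)
            (by positivity)
      refine h.trans (le_of_eq ?_)
      ring

theorem avo_apply (V : Fam E) (r : ℝ) (j : Bool) (u : E) :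
    avo V r j u = ∫ t in (0 : ℝ)..r, wt r j t • V.V t u := rfl

theorem avo_comm (V : Fam E) (V' : Fam E') (T : E →L[ℝ] E') (h : ∀ t u, T (V.V t u) = V'.V t (T u))
    (r : ℝ) (j : Bool) (u : E) : T (avo V r j u) = avo V' r j (T u) := by
  rw [avo_apply, avo_apply, ← ContinuousLinearMap.intervalIntegral_comp_comm T (V.int r j u _ _)]
  refine intervalIntegral.integral_congr fun t _ => ?_
  simp only [map_smul, h]

end Avo

/-! ### Hilbert space systems -/

section Abstract

variable {ι : Type} [Fintype ι] {H : Type} [NormedAddCommGroup H] [InnerProductSpace ℝ H]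
  [CompleteSpace H] (Q : HSys ι H)

/-- the group as a family -/
def famU (i : ι) : Fam H := ⟨Q.U i, Q.continuous_U i, fun t u => (Q.U_norm i t u).le⟩

theorem int_U_A (i : ι) (t : ℝ) (u : Q.A) :
    ∫ s in (0 : ℝ)..t, Q.U i s (Q.X i u : H) = Q.U i t u - u := by
  have h := intervalIntegral.integral_eq_sub_of_hasDerivAt (a := 0) (b := t)
    (fun s _ => Q.hasDerivAt_U i u s) ((Q.continuous_U i _).intervalIntegrable _ _)
  rw [h, Q.U_zero]
  rfl

theorem isH1_int_U {u : H} {v : ι → H} (h : Q.IsH1 u v) (i : ι) (t : ℝ) :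
    ∫ s in (0 : ℝ)..t, Q.U i s (v i) = Q.U i t u - u := by
  obtain ⟨a, ha, hb⟩ := h
  have e : ∀ w : H, avo (famU Q i) t false w = ∫ s in (0 : ℝ)..t, Q.U i s w := by
    intro w
    rw [avo_apply]
    refine intervalIntegral.integral_congr fun s _ => ?_
    simp [wt, famU]
  have h1 : Tendsto (fun n => avo (famU Q i) t false (Q.X i (a n) : H)) atTop
      (𝓝 (avo (famU Q i) t false (v i))) := ((avo (famU Q i) t false).continuous.tendsto _).comp (hb i)
  have h2 : Tendsto (fun n => Q.U i t (a n : H) - a n) atTop (𝓝 (Q.U i t u - u)) :=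
    (((Q.U i t).continuous.tendsto _).comp ha).sub ha
  simp only [e, int_U_A] at h1
  exact tendsto_nhds_unique h1 h2

theorem parts_A (r : ℝ) (i : ι) (u : Q.A) :
    r • (u : H) = avo (famU Q i) r false (u : H) + avo (famU Q i) r true (Q.X i u : H) := by
  have h1 : ∀ t, HasDerivAt (fun t : ℝ => (t - r) • Q.U i t (u : H))
      ((t - r) • Q.U i t (Q.X i u : H) + (1 : ℝ) • Q.U i t (u : H)) t := by
    intro t
    have h2 : HasDerivAt (fun t : ℝ => t - r) 1 t := (hasDerivAt_id t).sub_const r
    exact h2.smul (Q.hasDerivAt_U i u t)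
  have hc1 : Continuous fun t : ℝ => (t - r) • Q.U i t (Q.X i u : H) :=
    (continuous_id.sub continuous_const).smul (Q.continuous_U i _)
  have hc2 : Continuous fun t : ℝ => (1 : ℝ) • Q.U i t (u : H) :=
    continuous_const.smul (Q.continuous_U i _)
  have h := intervalIntegral.integral_eq_sub_of_hasDerivAt (a := 0) (b := r)
    (fun t _ => h1 t) ((hc1.add hc2).intervalIntegrable _ _)
  rw [intervalIntegral.integral_add (hc1.intervalIntegrable _ _) (hc2.intervalIntegrable _ _)] at h
  rw [avo_apply, avo_apply]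
  have h3 : (r - r) • Q.U i r (u : H) - (0 - r) • Q.U i 0 (u : H) = r • (u : H) := by
    rw [Q.U_zero]
    simp
  rw [h3] at h
  rw [← h, add_comm]
  rfl

theorem isH1_parts {u : H} {v : ι → H} (h : Q.IsH1 u v) (r : ℝ) (i : ι) :
    r • u = avo (famU Q i) r false u + avo (famU Q i) r true (v i) := by
  obtain ⟨a, ha, hb⟩ := h
  have h1 : Tendsto (fun n => r • (a n : H)) atTop (𝓝 (r • u)) := ha.const_smul r
  have h2 : Tendsto (fun n => avo (famU Q i) r false (a n : H) +
      avo (famU Q i) r true (Q.X i (a n) : H)) atTop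
      (𝓝 (avo (famU Q i) r false u + avo (famU Q i) r true (v i))) :=
    (((avo (famU Q i) r false).continuous.tendsto _).comp ha).add
      (((avo (famU Q i) r true).continuous.tendsto _).comp (hb i))
  simp only [← parts_A] at h2
  exact tendsto_nhds_unique h1 h2

theorem Sob_of_succ {s : ℕ} : ∀ {u : H}, Q.Sob (s + 1) u → Q.Sob s u := by
  induction s with
  | zero => intro u _; trivial
  | succ s ih =>
    rintro u ⟨v, hv, h⟩
    exact ⟨v, hv, fun i => ih (h i)⟩

/-- iterated weighted averages -/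
def cmp (r : ℝ) : List (ι × Bool) → H →L[ℝ] H
  | [] => ContinuousLinearMap.id ℝ H
  | (i, j) :: L => (avo (famU Q i) r j).comp (cmp r L)

/-- elements of Sobolev spaces are sums of iterated averages -/
theorem mem_of_Sob {r : ℝ} (hr : r ≠ 0) (𝒞 : Submodule ℝ H) (l : List ι) :
    ∀ (K : H →L[ℝ] H), (∀ L : List (ι × Bool), L.map Prod.fst = l → ∀ h, K (cmp Q r L h) ∈ 𝒞) →
      ∀ u, Q.Sob l.length u → K u ∈ 𝒞 := by
  induction l with
  | nil =>
    intro K hK u _
    exact hK [] rfl u
  | cons a l ih =>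
    intro K hK u hu
    have hu1 : Q.Sob l.length u := Sob_of_succ Q hu
    obtain ⟨v, hv, hs⟩ := hu
    have h1 := isH1_parts Q hv r a
    have h2 : ∀ j w, Q.Sob l.length w → K (avo (famU Q a) r j w) ∈ 𝒞 := by
      intro j w hw
      refine ih (K.comp (avo (famU Q a) r j)) (fun L hL h => ?_) w hw
      exact hK ((a, j) :: L) (by simp [hL]) h
    have h3 : r • K u ∈ 𝒞 := by
      rw [← map_smul, h1, map_add]
      exact 𝒞.add_mem (h2 _ _ hu1) (h2 _ _ (hs a))
    have h4 := 𝒞.smul_mem r⁻¹ h3
    rwa [smul_smul, inv_mul_cancel₀ hr, one_smul] at h4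

end Abstract

/-! ### the concrete system -/

variable {ι : Type} [Fintype ι] {N : Type} [TopologicalSpace N] [CompactSpace N]
  [MeasurableSpace N] [BorelSpace N] {μ : Measure N} [IsFiniteMeasure μ]
  [T2Space N] [μ.WeaklyRegular] [μ.IsOpenPosMeasure] (S : NSys ι N μ)

/-- the flow on continuous functions as a family -/
def famC (i : ι) : Fam C(N, ℝ) := ⟨UC S i, continuous_UC S i, norm_UC_le S i⟩

/-- iterated weighted averages of continuous functions -/
def cmpC (r : ℝ) : List (ι × Bool) → C(N, ℝ) →L[ℝ] C(N, ℝ)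
  | [] => ContinuousLinearMap.id ℝ _
  | (i, j) :: L => (avo (famC S i) r j).comp (cmpC r L)

theorem toL_cmpC (r : ℝ) (L : List (ι × Bool)) (f : C(N, ℝ)) :
    toL μ (cmpC S r L f) = cmp (toHSys S) r L (toL μ f) := by
  induction L generalizing f with
  | nil => rfl
  | cons x L ih =>
    obtain ⟨i, j⟩ := x
    change toL μ (avo (famC S i) r j (cmpC S r L f)) =
      avo (famU (toHSys S) i) r j (cmp (toHSys S) r L (toL μ f))
    rw [← ih]
    refine avo_comm (famC S i) (famU (toHSys S) i) (toL μ) (fun t u => ?_) r j _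
    exact (UL_toL S i t u).symm

theorem cmpC_le {r : ℝ} (hr : 0 < r) (L : List (ι × Bool)) (f : C(N, ℝ)) (p : N) :
    |cmpC S r L f p| ≤ (max 1 r) ^ L.length *
      H955.avg S.Φ r (L.map Prod.fst) (fun q => |f q|) p := by
  induction L generalizing p with
  | nil => simp [cmpC, H955.avg]
  | cons x L ih =>
    obtain ⟨i, j⟩ := x
    have hcont : Continuous fun t : ℝ => (cmpC S r L f) (S.Φ i t p) :=
      (cmpC S r L f).continuous.comp ((S.cont i).comp (Continuous.prodMk_left p))
    have hG : Continuous fun t : ℝ => wt r j t • UC S i t (cmpC S r L f) :=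
      (continuous_wt r j).smul (continuous_UC S i _)
    have e : cmpC S r ((i, j) :: L) f p = ∫ t in (0 : ℝ)..r, wt r j t * (cmpC S r L f) (S.Φ i t p) := by
      change (∫ t in (0 : ℝ)..r, wt r j t • UC S i t (cmpC S r L f)) p = _
      rw [integral_apply hG]
      rfl
    rw [e]
    have hav : Continuous fun t : ℝ =>
        H955.avg S.Φ r (L.map Prod.fst) (fun q => |f q|) (S.Φ i t p) :=
      H955.avg_flow_continuous S.cont r _ (continuous_abs.comp f.continuous) i p
    calc |∫ t in (0 : ℝ)..r, wt r j t * (cmpC S r L f) (S.Φ i t p)|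
        ≤ ∫ t in (0 : ℝ)..r, |wt r j t * (cmpC S r L f) (S.Φ i t p)| :=
          intervalIntegral.abs_integral_le_integral_abs hr.le
      _ ≤ ∫ t in (0 : ℝ)..r, (max 1 r) ^ (L.length + 1) *
            H955.avg S.Φ r (L.map Prod.fst) (fun q => |f q|) (S.Φ i t p) := by
          refine intervalIntegral.integral_mono_on hr.le
            ((((continuous_wt r j).mul hcont).abs).intervalIntegrable _ _)
            ((continuous_const.mul hav).intervalIntegrable _ _) fun t ht => ?_
          rw [abs_mul, pow_succ', mul_assoc]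
          refine mul_le_mul ?_ (ih _) (abs_nonneg _) (by positivity)
          have := abs_wt_le (r := r) (t := t) (by rw [uIcc_of_le hr.le]; exact ht) j
          rwa [abs_of_pos hr] at this
      _ = _ := by
          rw [intervalIntegral.integral_const_mul]
          rfl

/-- iterated averages over the list of `Loc` are bounded from `L²` to the continuous functions -/
theorem norm_cmpC_le {l : List ι} {r C : ℝ} (hr : 0 < r)
    (h : ∀ F : N → ℝ, Continuous F → (∀ p, 0 ≤ F p) →
      ∀ p, H955.avg S.Φ r l F p ≤ C * ∫ q, F q ∂μ)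
    {L : List (ι × Bool)} (hL : L.map Prod.fst = l) :
    ∃ K : ℝ, ∀ f : C(N, ℝ), ‖cmpC S r L f‖ ≤ K * ‖toL μ f‖ := by
  refine ⟨(max 1 r) ^ L.length * (max C 0 * ‖toL μ (1 : C(N, ℝ))‖), fun f => ?_⟩
  refine (ContinuousMap.norm_le _ (by positivity)).2 fun p => ?_
  rw [Real.norm_eq_abs]
  refine (cmpC_le S hr L f p).trans ?_
  rw [hL, mul_assoc]
  refine mul_le_mul_of_nonneg_left ?_ (by positivity)
  have h1 := h (fun q => |f q|) (continuous_abs.comp f.continuous) (fun _ => abs_nonneg _) p
  have h0 : 0 ≤ ∫ q, |f q| ∂μ := integral_nonneg fun _ => abs_nonneg _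
  refine (h1.trans (mul_le_mul_of_nonneg_right (le_max_left C 0) h0)).trans ?_
  rw [mul_assoc]
  refine mul_le_mul_of_nonneg_left ?_ (le_max_right _ _)
  -- the integral of the absolute value
  have h2 : ∫ q, |f q| ∂μ = ⟪toL μ (1 : C(N, ℝ)), toL μ (|f| : C(N, ℝ))⟫_ℝ := by
    rw [inner_toL]
    simp
  have h3 : ‖toL μ (|f| : C(N, ℝ))‖ = ‖toL μ f‖ := by
    rw [← Real.sqrt_sq (norm_nonneg (toL μ (|f| : C(N, ℝ)))), ← Real.sqrt_sq (norm_nonneg (toL μ f)),
      ← real_inner_self_eq_norm_sq, ← real_inner_self_eq_norm_sq, inner_toL, inner_toL]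
    congr 1
    refine integral_congr_ae (Eventually.of_forall fun q => ?_)
    simp
  rw [h2, ← h3]
  exact real_inner_le_norm _ _

/-- iterated averages over the list of `Loc` of square integrable functions are continuous -/
theorem cmp_mem_range {l : List ι} {r C : ℝ} (hr : 0 < r)
    (h : ∀ F : N → ℝ, Continuous F → (∀ p, 0 ≤ F p) →
      ∀ p, H955.avg S.Φ r l F p ≤ C * ∫ q, F q ∂μ)
    {L : List (ι × Bool)} (hL : L.map Prod.fst = l) (u : Lp ℝ 2 μ) :
    cmp (toHSys S) r L u ∈ LinearMap.range (toL (N := N) μ).toLinearMap := by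
  obtain ⟨K, hK⟩ := norm_cmpC_le S hr h hL
  obtain ⟨x, hx, hx2⟩ := mem_closure_iff_seq_limit.1 (toL_denseRange (N := N) (μ := μ) u)
  choose f hf using hx
  have hcau : CauchySeq fun n => cmpC S r L (f n) := by
    have h1 : CauchySeq fun n => toL μ (f n) := by
      have : (fun n => toL μ (f n)) = x := funext hf
      rw [this]
      exact hx2.cauchySeq
    rw [Metric.cauchySeq_iff] at h1 ⊢
    intro ε hε
    obtain ⟨n0, hn0⟩ := h1 (ε / (|K| + 1)) (by positivity)
    refine ⟨n0, fun m hm n hn => ?_⟩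
    have h2 := hn0 m hm n hn
    rw [dist_eq_norm, ← map_sub] at h2 ⊢
    calc ‖cmpC S r L (f m - f n)‖ ≤ K * ‖toL μ (f m - f n)‖ := hK _
      _ ≤ (|K| + 1) * ‖toL μ (f m - f n)‖ :=
          mul_le_mul_of_nonneg_right ((le_abs_self K).trans (by linarith)) (norm_nonneg _)
      _ < (|K| + 1) * (ε / (|K| + 1)) := mul_lt_mul_of_pos_left h2 (by positivity)
      _ = ε := by field_simp
  obtain ⟨g, hg⟩ := cauchySeq_tendsto_of_complete hcau
  refine ⟨g, ?_⟩
  have h3 : Tendsto (fun n => toL μ (cmpC S r L (f n))) atTop (𝓝 (toL μ g)) :=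
    ((toL μ).continuous.tendsto _).comp hg
  have h4 : Tendsto (fun n => cmp (toHSys S) r L (x n)) atTop (𝓝 (cmp (toHSys S) r L u)) :=
    ((cmp (toHSys S) r L).continuous.tendsto _).comp hx2
  have h5 : (fun n => toL μ (cmpC S r L (f n))) = fun n => cmp (toHSys S) r L (x n) := by
    funext n
    rw [toL_cmpC, hf]
  rw [h5] at h3
  exact tendsto_nhds_unique h3 h4

/-- **Sobolev embedding**: elements of a high Sobolev space are continuous -/
theorem exists_cont (hS : S.Loc) : ∃ s : ℕ, ∀ u : Lp ℝ 2 μ, (toHSys S).Sob s u →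
    ∃ f : C(N, ℝ), toL μ f = u := by
  obtain ⟨l, r, C, hr, h⟩ := hS
  refine ⟨l.length, fun u hu => ?_⟩
  exact mem_of_Sob (toHSys S) hr.ne' (LinearMap.range (toL (N := N) μ).toLinearMap) l
    (ContinuousLinearMap.id ℝ _) (fun L hL w => cmp_mem_range S hr h hL w) u hu

/-- continuous representatives of weak derivatives are derivatives along the flows -/
theorem hasDerivAt_of_IsH1 {f f' : C(N, ℝ)} {v : ι → Lp ℝ 2 μ}
    (h : (toHSys S).IsH1 (toL μ f) v) {a : ι} (ha : v a = toL μ f') (p : N) :
    HasDerivAt (fun t => f (S.Φ a t p)) (f' p) 0 := by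
  have h1 : ∀ t : ℝ, UC S a t f = f + ∫ s in (0 : ℝ)..t, UC S a s f' := by
    intro t
    apply toL_injective (μ := μ)
    have h2 := isH1_int_U (toHSys S) h a t
    rw [ha] at h2
    rw [map_add, ← ContinuousLinearMap.intervalIntegral_comp_comm (toL μ)
      ((continuous_UC S a f').intervalIntegrable _ _)]
    have h3 : ∫ s in (0 : ℝ)..t, toL μ (UC S a s f') =
        ∫ s in (0 : ℝ)..t, (toHSys S).U a s (toL μ f') :=
      intervalIntegral.integral_congr fun s _ => (UL_toL S a s f').symm
    rw [h3, h2, ← UL_toL, toHSys_U]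
    abel
  have hG := continuous_UC S a f'
  have h4 : HasDerivAt (fun t => UC S a t f) (UC S a 0 f') 0 := by
    have h5 : (fun t => UC S a t f) = fun t => f + ∫ s in (0 : ℝ)..t, UC S a s f' := funext h1
    rw [h5]
    exact (intervalIntegral.integral_hasDerivAt_right (hG.intervalIntegrable _ _)
      (hG.stronglyMeasurableAtFilter _ _) hG.continuousAt).const_add _
  have h6 := (ContinuousMap.evalCLM ℝ p).hasFDerivAt.comp_hasDerivAt 0 h4
  have h7 : (UC S a 0 f') p = f' p := by simp [S.zero]
  have h8 : HasDerivAt (fun t => f (S.Φ a t p)) ((UC S a 0 f') p) 0 := h6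
  rwa [h7] at h8

/-- **elements of all Sobolev spaces are smooth functions** -/
theorem reg_of_loc_cl (hS : S.Loc) (hC : S.CL) : (toHSys S).Reg := by
  obtain ⟨s, hs⟩ := exists_cont S hS
  intro u hu
  obtain ⟨f, rfl⟩ := hs u (hu s)
  refine toL_mem_AL S (hC {f | ∀ k, (toHSys S).Sob k (toL μ f)} (fun g hg a => ?_) f hu)
  obtain ⟨v, hv, -⟩ := hg 1
  have hva : ∀ k, (toHSys S).Sob k (v a) := by
    intro k
    obtain ⟨v', hv', h'⟩ := hg (k + 1)
    have : v = v' := hv.unique hv'
    rw [this]
    exact h' a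
  obtain ⟨g', hg'⟩ := hs (v a) (hva s)
  refine ⟨g', ?_, fun p => hasDerivAt_of_IsH1 S hv hg'.symm p⟩
  intro k
  rw [hg']
  exact hva k

end Vale.Agent.P207.H571
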