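import Vale.Agent.P207.H442.Int

/-!
# P207, block POS, hole H2: the second variation is invariant under diffeomorphisms

`Bf I o k y k' y'` is the bilinear form of the second variation `Q_y(k)`.  The pairs
`(L_W g, -W^⊥)` are in its kernel, for every metric.
-/

set_option linter.unusedSectionVars false

noncomputable section

namespace Vale.Agent.P207.H571

open Finset H442 H442.FrCalc

variable {n : ℕ} {A : Type*} [CommRing A] [Algebra ℝ A] {C : FrCalc n A}

/-! ### contraction, averages over the fibre -/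

/-- the product of two tensors of rank two, contracted once -/
theorem T2_mul_tr {k u : Fin n → Fin n → A} (hk : C.T2 k) (hu : C.T2 u) :
    C.T2 (fun c d => ∑ i, k c i * u d i) := by
  intro a b c d
  have h1 : ∀ i, C.V a b (k c i * u d i) =
      ac a b (fun c => k c i * u d i) c + ac a b (fun d => k c i * u d i) d +
      (ac a b (fun i => k c i) i * u d i + k c i * ac a b (fun i => u d i) i) := by
    intro i
    rw [Derivation.leibniz, hk a b c i, hu a b d i, smul_eq_mul, smul_eq_mul,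
      ac_mul_right a b (u d i) (fun c => k c i) c, ac_mul_left a b (k c i) (fun d => u d i) d]
    ring
  rw [map_sum]
  simp only [h1, Finset.sum_add_distrib]
  have h2 := sum_ac_mul a b (fun i => k c i) (fun i => u d i)
  rw [Finset.sum_add_distrib] at h2
  rw [h2, add_zero, ac_sum, ac_sum]

variable {I : A →ₗ[ℝ] ℝ}

/-- the average of a tensor over the fibre -/
theorem avg_T2 (hI : C.IsInt I) {T : Fin n → Fin n → A} (hT : C.T2 T) (i j : Fin n) :
    I (T i i) = I (T j j) := by
  by_cases hij : i = j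
  · rw [hij]
  have h1 := hT i j i j
  have h2 : C.V i j (T i j) = T i i - T j j := by
    rw [h1]
    have hji : j ≠ i := fun h => hij h.symm
    simp only [ac, if_neg hij, if_neg hji, if_true]
    ring
  have h3 := hI.ver i j (T i j)
  rw [h2, map_sub] at h3
  linarith

theorem avg_tr (hI : C.IsInt I) {T : Fin n → Fin n → A} (hT : C.T2 T) (o : Fin n) :
    (n : ℝ) * I (T o o) = I (∑ i, T i i) := by
  rw [map_sum]
  simp only [fun i => avg_T2 hI hT i o]
  simp

/-! ### the second variation -/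

variable (C) in
/-- `Z_i = H_o k_oi - (1/2) H_i k_oo` -/
def Zf (o : Fin n) (k : Fin n → Fin n → A) (i : Fin n) : A :=
  C.H o (k o i) - (1 / 2 : ℝ) • C.H i (k o o)

variable (C) in
/-- minus the Jacobi operator of `e_o` -/
def Kf (o i j : Fin n) : A := -C.R i o o j

variable (C) in
/-- the bilinear form of the second variation -/
def Bf (I : A →ₗ[ℝ] ℝ) (o : Fin n) (k : Fin n → Fin n → A) (y : Fin n → A)
    (k' : Fin n → Fin n → A) (y' : Fin n → A) : ℝ :=
  n * ((∑ i, I (Zf C o k i * y' i)) + (∑ i, I (Zf C o k' i * y i))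
    - (∑ i, I (C.H o (y i) * C.H o (y' i))) - (∑ i, ∑ j, I (Kf C o i j * (y i * y' j)))
    + (1 / 4) * I (k o o * k' o o))
  + (1 / 4) * I ((∑ i, k i i) * ∑ i, k' i i) - (1 / 2) * ∑ i, ∑ j, I (k i j * k' i j)

variable (C) in
/-- the second variation `Q_y(k)` -/
def Qf (I : A →ₗ[ℝ] ℝ) (o : Fin n) (k : Fin n → Fin n → A) (y : Fin n → A) : ℝ :=
  n * (2 * (∑ i, I (Zf C o k i * y i)) - (∑ i, I (C.H o (y i) * C.H o (y i)))
    - (∑ i, ∑ j, I (Kf C o i j * (y i * y j))) + (1 / 4) * I (k o o * k o o))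
  + (1 / 4) * I ((∑ i, k i i) * ∑ i, k i i) - (1 / 2) * ∑ i, ∑ j, I (k i j * k i j)

theorem Qf_eq (o : Fin n) (k : Fin n → Fin n → A) (y : Fin n → A) :
    Qf C I o k y = Bf C I o k y k y := by
  unfold Qf Bf
  ring

theorem Kf_symm (o i j : Fin n) : Kf C o i j = Kf C o j i := by
  unfold Kf
  rw [C.R_pair i o o j, C.R_anti o j i o, C.R_skew j o i o, neg_neg]

theorem Kf_right (o i : Fin n) : Kf C o i o = 0 := by
  unfold Kf
  have h := C.R_skew i o o o
  have h2 : (2 : ℝ) • C.R i o o o = 0 := by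
    rw [two_smul]
    nth_rewrite 1 [h]
    simp
  have h3 := congrArg (fun z => (1 / 2 : ℝ) • z) h2
  simp only [smul_smul, smul_zero] at h3
  norm_num at h3
  rw [h3, neg_zero]

theorem Kf_left (o i : Fin n) : Kf C o o i = 0 := by rw [Kf_symm, Kf_right]

theorem Zf_add (o : Fin n) (k k' : Fin n → Fin n → A) (i : Fin n) :
    Zf C o (fun i j => k i j + k' i j) i = Zf C o k i + Zf C o k' i := by
  unfold Zf
  rw [map_add, map_add, smul_add]
  ring

theorem Bf_symm (o : Fin n) (k k' : Fin n → Fin n → A) (y y' : Fin n → A) :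
    Bf C I o k y k' y' = Bf C I o k' y' k y := by
  have e1 : ∑ i, I (C.H o (y i) * C.H o (y' i)) = ∑ i, I (C.H o (y' i) * C.H o (y i)) :=
    Finset.sum_congr rfl fun i _ => by rw [mul_comm]
  have e2 : ∑ i, ∑ j, I (Kf C o i j * (y i * y' j)) = ∑ i, ∑ j, I (Kf C o i j * (y' i * y j)) := by
    rw [Finset.sum_comm]
    refine Finset.sum_congr rfl fun i _ => Finset.sum_congr rfl fun j _ => ?_
    rw [Kf_symm, mul_comm (y j)]
  have e3 : ∑ i, ∑ j, I (k i j * k' i j) = ∑ i, ∑ j, I (k' i j * k i j) :=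
    Finset.sum_congr rfl fun i _ => Finset.sum_congr rfl fun j _ => by rw [mul_comm]
  unfold Bf
  rw [e1, e2, e3, mul_comm (k o o), mul_comm (∑ i, k i i)]
  ring

theorem Bf_add_left (o : Fin n) (k₁ k₂ k' : Fin n → Fin n → A) (y₁ y₂ y' : Fin n → A) :
    Bf C I o (fun i j => k₁ i j + k₂ i j) (fun i => y₁ i + y₂ i) k' y' =
      Bf C I o k₁ y₁ k' y' + Bf C I o k₂ y₂ k' y' := by
  unfold Bf
  simp only [Zf_add, map_add, add_mul, mul_add, Finset.sum_add_distrib]
  ring

theorem Bf_add_right (o : Fin n) (k k₁ k₂ : Fin n → Fin n → A) (y y₁ y₂ : Fin n → A) :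
    Bf C I o k y (fun i j => k₁ i j + k₂ i j) (fun i => y₁ i + y₂ i) =
      Bf C I o k y k₁ y₁ + Bf C I o k y k₂ y₂ := by
  rw [Bf_symm, Bf_add_left, Bf_symm, Bf_symm o k₂]

theorem Qf_add (o : Fin n) (k k' : Fin n → Fin n → A) (y y' : Fin n → A) :
    Qf C I o (fun i j => k i j + k' i j) (fun i => y i + y' i) =
      Qf C I o k y + 2 * Bf C I o k y k' y' + Qf C I o k' y' := by
  rw [Qf_eq, Qf_eq, Qf_eq, Bf_add_left, Bf_add_right, Bf_add_right, Bf_symm o k' k]
  ring

/-! ### Lie derivatives -/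

variable (C) in
/-- the Lie derivative `L_W g` -/
def Lg (W : Fin n → A) (i j : Fin n) : A := C.H i (W j) + C.H j (W i)

/-- minus the perpendicular part -/
def pn (o : Fin n) (W : Fin n → A) (i : Fin n) : A := if i = o then 0 else -W i

theorem T2_Lg {W : Fin n → A} (hW : C.T1 W) : C.T2 (Lg C W) :=
  (hW.nabla).add (hW.nabla).swap

theorem Lg_symm (W : Fin n → A) (i j : Fin n) : Lg C W i j = Lg C W j i := by
  unfold Lg; rw [add_comm]

/-- `Z(L_W g) = H_o² W - K W` -/
theorem Zf_Lg {W : Fin n → A} (hW : C.T1 W) (o i : Fin n) :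
    Zf C o (Lg C W) i = C.H o (C.H o (W i)) - ∑ j, Kf C o i j * W j := by
  unfold Zf Lg
  rw [map_add, hW.comm o i o]
  have h1 : (1 / 2 : ℝ) • C.H i (C.H o (W o) + C.H o (W o)) = C.H i (C.H o (W o)) := by
    rw [← two_smul ℝ (C.H o (W o)), Derivation.map_smul, half_two]
  have h2 : ∑ c, C.R o i c o * W c = -∑ j, Kf C o i j * W j := by
    rw [← Finset.sum_neg_distrib]
    refine Finset.sum_congr rfl fun j _ => ?_
    unfold Kf
    rw [C.R_anti i o o j, C.R_skew o i o j]
    ring
  rw [h1, h2]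
  ring

theorem I_sum_pn (o : Fin n) (F W : Fin n → A) :
    ∑ i, I (F i * pn o W i) = I (F o * W o) - ∑ i, I (F i * W i) := by
  have h : ∀ i, I (F i * pn o W i) = (if i = o then I (F o * W o) else 0) - I (F i * W i) := by
    intro i
    unfold pn
    by_cases h : i = o
    · rw [if_pos h, if_pos h, h]
      simp
    · rw [if_neg h, if_neg h]
      simp
  simp only [h, Finset.sum_sub_distrib, Finset.sum_ite_eq', Finset.mem_univ, if_true]

/-- **the pairs `(L_W g, -W^⊥)` are in the kernel of the second variation** -/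
theorem Bf_Lg (hI : C.IsInt I) (o : Fin n) {k : Fin n → Fin n → A} (hk : C.T2 k)
    (hs : ∀ i j, k i j = k j i) {y : Fin n → A} (hy : y o = 0) {W : Fin n → A} (hW : C.T1 W) :
    Bf C I o k y (Lg C W) (pn o W) = 0 := by
  -- the terms with `y`
  have h1 : (∑ i, I (Zf C o (Lg C W) i * y i)) - (∑ i, I (C.H o (y i) * C.H o (pn o W i)))
      - (∑ i, ∑ j, I (Kf C o i j * (y i * pn o W j))) = 0 := by
    rw [← Finset.sum_sub_distrib, ← Finset.sum_sub_distrib]
    refine Finset.sum_eq_zero fun i _ => ?_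
    have e1 : ∑ j, I (Kf C o i j * (y i * pn o W j)) = -I ((∑ j, Kf C o i j * W j) * y i) := by
      have e2 : ∀ j, I (Kf C o i j * (y i * pn o W j)) = -I (Kf C o i j * W j * y i) := by
        intro j
        unfold pn
        by_cases h : j = o
        · rw [if_pos h, h, Kf_right]; simp
        · rw [if_neg h, ← map_neg]; congr 1; ring
      simp only [e2, Finset.sum_mul, map_sum, Finset.sum_neg_distrib]
    rw [e1, Zf_Lg hW]
    by_cases h : i = o
    · rw [h, hy]; simp
    · have e3 : I (C.H o (y i) * C.H o (pn o W i)) = I (C.H o (C.H o (W i)) * y i) := by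
        unfold pn
        rw [if_neg h, hI.H_mul, map_neg, map_neg, mul_neg, map_neg, neg_neg, mul_comm]
      rw [e3, sub_mul, map_sub]
      ring
  -- the terms with `k`
  have h2 : ∑ i, I (Zf C o k i * pn o W i) = -I (k o o * C.H o (W o)) / 2
      + (∑ i, I (k o i * C.H o (W i))) - (1 / 2) * I (k o o * ∑ i, C.H i (W i)) := by
    rw [I_sum_pn]
    have e1 : ∀ i, I (Zf C o k i * W i) = -I (k o i * C.H o (W i)) +
        (1 / 2) * I (k o o * C.H i (W i)) := by
      intro i
      unfold Zf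
      rw [sub_mul, map_sub, smul_mul_assoc, map_smul, hI.H_mul, hI.H_mul, smul_eq_mul]
      ring
    simp only [e1, Finset.sum_add_distrib, Finset.sum_neg_distrib, Finset.mul_sum, map_sum]
    ring
  have h3 : (n : ℝ) * ∑ i, I (k o i * C.H o (W i)) = (1 / 2) * ∑ i, ∑ j, I (k i j * Lg C W i j) := by
    have hT : C.T2 (fun c d => ∑ i, k c i * C.H d (W i)) := T2_mul_tr hk hW.nabla
    have e1 := avg_tr hI hT o
    simp only [map_sum] at e1
    rw [e1]
    have e2 : ∑ i, ∑ j, I (k i j * C.H j (W i)) = ∑ i, ∑ j, I (k i j * C.H i (W j)) := by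
      rw [Finset.sum_comm]
      refine Finset.sum_congr rfl fun i _ => Finset.sum_congr rfl fun j _ => ?_
      rw [hs]
    simp only [Lg, mul_add, map_add, Finset.sum_add_distrib]
    rw [e2]
    ring
  have h4 : (n : ℝ) * I (k o o * ∑ i, C.H i (W i)) = I ((∑ i, k i i) * ∑ i, C.H i (W i)) := by
    have hT : C.T2 (fun c d => k c d * ∑ i, C.H i (W i)) := by
      have e0 := hk.mul0 (hW.nabla).tr
      intro a b i j
      have e1 := e0 a b i j
      simpa only [mul_comm] using e1
    have e1 := avg_tr hI hT o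
    rw [e1, Finset.sum_mul]
  have h5 : ∑ i, Lg C W i i = (2 : ℝ) • ∑ i, C.H i (W i) := by
    rw [Finset.smul_sum]
    exact Finset.sum_congr rfl fun i _ => (two_smul ℝ _).symm
  have h6 : I (k o o * Lg C W o o) = 2 * I (k o o * C.H o (W o)) := by
    have : Lg C W o o = (2 : ℝ) • C.H o (W o) := (two_smul ℝ _).symm
    rw [this, mul_smul_comm, map_smul, smul_eq_mul]
  unfold Bf
  rw [h5, mul_smul_comm, map_smul, smul_eq_mul, h6, h2, ← h4]
  have h7 : (∑ i, I (Zf C o (Lg C W) i * y i)) =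
      (∑ i, I (C.H o (y i) * C.H o (pn o W i))) +
        (∑ i, ∑ j, I (Kf C o i j * (y i * pn o W j))) := by linarith
  rw [h7]
  linarith [h3]

/-- **invariance of the second variation** -/
theorem Qf_inv (hI : C.IsInt I) (o : Fin n) {k : Fin n → Fin n → A} (hk : C.T2 k)
    (hs : ∀ i j, k i j = k j i) {y : Fin n → A} (hy : y o = 0) {W : Fin n → A} (hW : C.T1 W) :
    Qf C I o (fun i j => k i j + Lg C W i j) (fun i => y i + pn o W i) = Qf C I o k y := by
  have h1 : Bf C I o (Lg C W) (pn o W) (Lg C W) (pn o W) = 0 :=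
    Bf_Lg hI o (T2_Lg hW) (Lg_symm W) (by simp [pn]) hW
  rw [Qf_add, Bf_Lg hI o hk hs hy hW, Qf_eq (k := Lg C W), h1]
  ring

end Vale.Agent.P207.H571
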