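import Vale.Agent.P207.H395.NSys

/-!
# P207, block SPEC, row R3: the flows on continuous functions
-/

open Filter Topology MeasureTheory Set
open scoped InnerProductSpace Interval

noncomputable section

namespace Vale.Agent.P207.H571

open H395

section General

variable {N : Type} [TopologicalSpace N] [CompactSpace N]

omit [CompactSpace N] in
/-- jointly continuous functions are continuous curves in `C(N, ℝ)` -/
theorem continuous_curry {F : ℝ → C(N, ℝ)} (hF : Continuous fun q : ℝ × N => F q.1 q.2) :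
    Continuous F := by
  have h := (ContinuousMap.curry (⟨fun q : ℝ × N => F q.1 q.2, hF⟩ : C(ℝ × N, ℝ))).continuous
  exact h

/-- integrals in `C(N, ℝ)` are computed pointwise -/
theorem integral_apply {G : ℝ → C(N, ℝ)} (hG : Continuous G) (a b : ℝ) (p : N) :
    (∫ t in a..b, G t) p = ∫ t in a..b, G t p := by
  have h := ContinuousLinearMap.intervalIntegral_comp_comm (ContinuousMap.evalCLM ℝ p)
    (hG.intervalIntegrable (μ := volume) a b)
  simpa using h.symm

/-- pointwise derivatives which are continuous curves are derivatives in `C(N, ℝ)` -/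
theorem hasDerivAt_curve {F G : ℝ → C(N, ℝ)} (hG : Continuous G)
    (h : ∀ t p, HasDerivAt (fun t => F t p) (G t p) t) (s : ℝ) : HasDerivAt F (G s) s := by
  have h1 : F = fun t => F 0 + ∫ r in (0 : ℝ)..t, G r := by
    funext t
    ext p
    have h2 : ∫ r in (0 : ℝ)..t, G r p = F t p - F 0 p :=
      intervalIntegral.integral_eq_sub_of_hasDerivAt (fun r _ => h r p)
        (((ContinuousMap.evalCLM ℝ p).continuous.comp hG).intervalIntegrable _ _)
    rw [ContinuousMap.add_apply, integral_apply hG, h2]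
    ring
  have h3 : HasDerivAt (fun t => ∫ r in (0 : ℝ)..t, G r) (G s) s :=
    intervalIntegral.integral_hasDerivAt_right (hG.intervalIntegrable _ _)
      (hG.stronglyMeasurableAtFilter _ _) hG.continuousAt
  rw [h1]
  exact h3.const_add _

end General

variable {ι : Type} [Fintype ι] {N : Type} [TopologicalSpace N] [CompactSpace N]
  [MeasurableSpace N] {μ : Measure N} (S : NSys ι N μ)

/-- the flow as a continuous map -/
def fm (a : ι) (t : ℝ) : C(N, N) := ⟨S.Φ a t, (S.cont a).comp (Continuous.prodMk_right t)⟩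

@[simp] theorem fm_apply (a : ι) (t : ℝ) (p : N) : fm S a t p = S.Φ a t p := rfl

/-- composition with the flow on continuous functions -/
def UC (a : ι) (t : ℝ) : C(N, ℝ) →L[ℝ] C(N, ℝ) :=
  LinearMap.mkContinuous
    { toFun := fun f => f.comp (fm S a t)
      map_add' := fun _ _ => rfl
      map_smul' := fun _ _ => rfl } 1 fun f => by
        rw [one_mul]
        refine (ContinuousMap.norm_le _ (norm_nonneg _)).2 fun p => ?_
        exact f.norm_coe_le_norm _

@[simp] theorem UC_apply (a : ι) (t : ℝ) (f : C(N, ℝ)) (p : N) : UC S a t f p = f (S.Φ a t p) := rfl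

theorem norm_UC_le (a : ι) (t : ℝ) (f : C(N, ℝ)) : ‖UC S a t f‖ ≤ ‖f‖ :=
  (ContinuousMap.norm_le _ (norm_nonneg _)).2 fun _ => f.norm_coe_le_norm _

theorem continuous_UC (a : ι) (f : C(N, ℝ)) : Continuous fun t => UC S a t f :=
  continuous_curry (F := fun t => UC S a t f) (f.continuous.comp (S.cont a))

theorem UC_mem (a : ι) (t : ℝ) {f : C(N, ℝ)} (hf : f ∈ S.A) : UC S a t f ∈ S.A := by
  obtain ⟨g, hg, h⟩ := S.comp a t f hf
  have : UC S a t f = g := by
    ext p; exact (h p).symm
  rw [this]; exact hg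

/-- composition with the flow on smooth functions -/
def UN (a : ι) (t : ℝ) (f : S.A) : S.A := ⟨UC S a t f, UC_mem S a t f.2⟩

@[simp] theorem coe_UN (a : ι) (t : ℝ) (f : S.A) : (UN S a t f : C(N, ℝ)) = UC S a t f := rfl

theorem UN_zero (a : ι) (f : S.A) : UN S a 0 f = f := by
  apply Subtype.ext
  ext p
  simp [S.zero]

/-- the derivative along the flow at all times -/
theorem hasDerivAt_flow (a : ι) (f : S.A) (p : N) (s : ℝ) :
    HasDerivAt (fun t => (f : C(N, ℝ)) (S.Φ a t p)) ((S.X a f : C(N, ℝ)) (S.Φ a s p)) s := by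
  have h1 := S.der a f (S.Φ a s p)
  have h2 : HasDerivAt (fun t => (f : C(N, ℝ)) (S.Φ a t (S.Φ a s p)))
      ((S.X a f : C(N, ℝ)) (S.Φ a s p)) (s - s) := by rw [sub_self]; exact h1
  have h3 := h2.comp_sub_const s s
  refine h3.congr_of_eventuallyEq (Eventually.of_forall fun t => ?_)
  simp only
  rw [← S.add]
  congr 2
  ring

/-- differentiability of the flow on smooth functions in the sup norm -/
theorem hasDerivAt_UC (a : ι) (f : S.A) (s : ℝ) :
    HasDerivAt (fun t => UC S a t (f : C(N, ℝ))) (UC S a s (S.X a f)) s :=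
  hasDerivAt_curve (F := fun t => UC S a t (f : C(N, ℝ))) (G := fun t => UC S a t (S.X a f))
    (continuous_UC S a _) (fun t p => hasDerivAt_flow S a f p t) s

/-- the derivatives of `f ∘ Φ b t` along `a` depend continuously on `t` -/
theorem continuous_XUN (a b : ι) (f : S.A) :
    Continuous fun t => (S.X a (UN S b t f) : C(N, ℝ)) := by
  refine continuous_curry (F := fun t => (S.X a (UN S b t f) : C(N, ℝ))) ?_
  refine (S.joint a b f).congr fun q => ?_
  have h := S.der a (UN S b q.1 f) q.2
  exact h.deriv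

theorem integral_XUN (a b : ι) (f : S.A) (t : ℝ) (p : N) :
    ∫ s in (0 : ℝ)..t, (S.X a (UN S b s (S.X b f)) : C(N, ℝ)) p =
      (S.X a (UN S b t f) : C(N, ℝ)) p - (S.X a f : C(N, ℝ)) p := by
  -- the function `r ↦ ∫ (X_b f) (Φ_b(s) Φ_a(r) p) ds`
  set g := S.X b f with hg
  have hgc := continuous_XUN S a b g
  obtain ⟨K, hK⟩ : ∃ K, ∀ s ∈ uIcc (0 : ℝ) t, ‖(S.X a (UN S b s g) : C(N, ℝ))‖ ≤ K :=
    isCompact_uIcc.exists_bound_of_continuousOn hgc.continuousOn
  have hflow : Continuous fun r : ℝ => S.Φ a r p := (S.cont a).comp (Continuous.prodMk_left p)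
  have h1 : HasDerivAt (fun r => ∫ s in (0 : ℝ)..t, (g : C(N, ℝ)) (S.Φ b s (S.Φ a r p)))
      (∫ s in (0 : ℝ)..t, (S.X a (UN S b s g) : C(N, ℝ)) (S.Φ a 0 p)) 0 := by
    refine (intervalIntegral.hasDerivAt_integral_of_dominated_loc_of_deriv_le (μ := volume)
      (F := fun r s => (g : C(N, ℝ)) (S.Φ b s (S.Φ a r p)))
      (F' := fun r s => (S.X a (UN S b s g) : C(N, ℝ)) (S.Φ a r p))
      (s := univ) (bound := fun _ => K) Filter.univ_mem ?_ ?_ ?_ ?_ ?_ ?_).2
    · refine Eventually.of_forall fun r => Continuous.aestronglyMeasurable ?_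
      exact (g : C(N, ℝ)).continuous.comp ((S.cont b).comp (Continuous.prodMk_left _))
    · refine Continuous.intervalIntegrable ?_ _ _
      exact (g : C(N, ℝ)).continuous.comp ((S.cont b).comp (Continuous.prodMk_left _))
    · refine Continuous.aestronglyMeasurable ?_
      exact (ContinuousMap.evalCLM ℝ (S.Φ a 0 p)).continuous.comp hgc
    · refine Eventually.of_forall fun s hs r _ => ?_
      exact (ContinuousMap.norm_coe_le_norm _ _).trans (hK s (uIoc_subset_uIcc hs))
    · exact intervalIntegrable_const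
    · refine Eventually.of_forall fun s _ r _ => ?_
      exact hasDerivAt_flow S a (UN S b s g) p r
  have h2 : ∀ r, ∫ s in (0 : ℝ)..t, (g : C(N, ℝ)) (S.Φ b s (S.Φ a r p)) =
      (f : C(N, ℝ)) (S.Φ b t (S.Φ a r p)) - (f : C(N, ℝ)) (S.Φ a r p) := by
    intro r
    have h3 := intervalIntegral.integral_eq_sub_of_hasDerivAt (a := 0) (b := t)
      (fun s _ => hasDerivAt_flow S b f (S.Φ a r p) s)
      (((g : C(N, ℝ)).continuous.comp ((S.cont b).comp
        (Continuous.prodMk_left _))).intervalIntegrable _ _)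
    rw [hg, h3, S.zero]
  have h4 : HasDerivAt (fun r => (f : C(N, ℝ)) (S.Φ b t (S.Φ a r p)) - (f : C(N, ℝ)) (S.Φ a r p))
      ((S.X a (UN S b t f) : C(N, ℝ)) p - (S.X a f : C(N, ℝ)) p) 0 :=
    (S.der a (UN S b t f) p).sub (S.der a f p)
  have h5 := h1.unique (by simpa only [h2] using h4)
  rw [S.zero] at h5
  exact h5

/-- the derivation `a` along the flow `b`, in the sup norm -/
theorem hasDerivAt_XUN (a b : ι) (f : S.A) :
    HasDerivAt (fun t => (S.X a (UN S b t f) : C(N, ℝ))) (S.X a (S.X b f) : C(N, ℝ)) 0 := by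
  have hG := continuous_XUN S a b (S.X b f)
  have h1 : (fun t => (S.X a (UN S b t f) : C(N, ℝ))) = fun t => (S.X a f : C(N, ℝ)) +
      ∫ r in (0 : ℝ)..t, (S.X a (UN S b r (S.X b f)) : C(N, ℝ)) := by
    funext t
    ext p
    rw [ContinuousMap.add_apply, integral_apply hG, integral_XUN]
    ring
  have h3 : HasDerivAt (fun t => ∫ r in (0 : ℝ)..t, (S.X a (UN S b r (S.X b f)) : C(N, ℝ)))
      (S.X a (UN S b 0 (S.X b f)) : C(N, ℝ)) 0 :=
    intervalIntegral.integral_hasDerivAt_right (hG.intervalIntegrable _ _)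
      (hG.stronglyMeasurableAtFilter _ _) hG.continuousAt
  rw [UN_zero] at h3
  rw [h1]
  exact h3.const_add _

end Vale.Agent.P207.H571
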