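import Vale.Agent.P207.H571.Inv
import Vale.Agent.P207.Kat.Q

/-!
# P207, block POS, hole H2: invariance of the second variation, in the notation of `Kat.Q`
-/

noncomputable section

namespace Vale.Agent.P207.H571

open Finset H442 H442.FrCalc

variable {n : ℕ} [NeZero n] {A : Type*} [CommRing A] [Algebra ℝ A] {C : FrCalc n A}
  {I : A →ₗ[ℝ] ℝ}

theorem Kat_Qf_eq (k : Fin n → Fin n → A) (y : Fin n → A) :
    Kat.Qf C I k y = Qf C I 0 k y := by
  unfold Kat.Qf Kat.Qint Qf
  have e1 : ∀ i, Kat.Zf C k i = Zf C 0 k i := fun _ => rfl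
  have e2 : ∀ i j, Kat.Kf C i j = Kf C 0 i j := fun _ _ => rfl
  simp only [e1, e2, map_add, map_sub, map_smul, map_sum, smul_eq_mul, mul_assoc]

/-- **invariance of the second variation under `(k, y) ↦ (k + L_W g, y - W^⊥)`** -/
theorem Kat_Qf_inv (hI : C.IsInt I) {k : Fin n → Fin n → A} (hk : C.T2 k)
    (hs : ∀ i j, k i j = k j i) {y : Fin n → A} (hy : y 0 = 0) {W : Fin n → A} (hW : C.T1 W) :
    Kat.Qf C I (fun i j => k i j + Kat.Lf C W i j) (fun i => y i - Kat.perp W i) =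
      Kat.Qf C I k y := by
  rw [Kat_Qf_eq, Kat_Qf_eq, ← Qf_inv hI 0 hk hs hy hW]
  congr 1
  funext i
  unfold Kat.perp pn
  by_cases h : i = 0
  · rw [if_pos h, if_pos h, sub_zero, add_zero]
  · rw [if_neg h, if_neg h, sub_eq_add_neg]

/-- the form of the invariance used for a decomposition `k = k' + L_W g` -/
theorem Kat_Qf_inv' (hI : C.IsInt I) {k k' : Fin n → Fin n → A} (hk : C.T2 k')
    (hs : ∀ i j, k' i j = k' j i) {W : Fin n → A} (hW : C.T1 W)
    (hkk : ∀ i j, k i j = k' i j + Kat.Lf C W i j) {y : Fin n → A} (hy : y 0 = 0) :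
    Kat.Qf C I k (fun i => y i - Kat.perp W i) = Kat.Qf C I k' y := by
  have h : k = fun i j => k' i j + Kat.Lf C W i j := by
    funext i j; exact hkk i j
  rw [h]
  exact Kat_Qf_inv hI hk hs hy hW

end Vale.Agent.P207.H571
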